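import Vale.Agent.P140.Final

namespace Vale.Agent.Results.P140.Nonunique

open Vale.Agent.P140

theorem result : ∃ (F₀ : Ph → ℝ) (F G : ℝ → Ph → ℝ),
    IsDatum F₀ ∧ IsSolution F₀ F ∧ IsSolution F₀ G ∧ ¬ AeEqST F G := by
  obtain ⟨F₀, F, G, h0, hF, hG, hne⟩ := nonunique
  exact ⟨F₀, F, G, h0, hF.isSolution, hG.isSolution, hne⟩

end Vale.Agent.Results.P140.Nonunique
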